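import Vale.Agent.P063.Numeric

namespace Vale.Agent.Results.P063.CliqueSharpness

open Vale.Agent.P063

/-- For every uniformity `r ≥ 2` and every `0 < ε < 1/2` there is `c > 0` such that for every
`n ≥ r` some nontrivial increasing `r`-uniform hypergraph property on `n` vertices has threshold
width at least `c (log n)^(-r/(r-1))`. -/
theorem result : ∀ r : ℕ, 2 ≤ r → ∀ ε : ℝ, 0 < ε → ε < 1 / 2 →
    ∃ c : ℝ, 0 < c ∧ ∀ n : ℕ, r ≤ n → ∃ P : Finset (Hyp n r), IsNontrivIncrProperty P ∧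
      c / (Real.log n) ^ ((r : ℝ) / ((r : ℝ) - 1)) ≤ width ε P :=
  fun r hr ε h0 h1 => sharpness r hr ε h0 h1

end Vale.Agent.Results.P063.CliqueSharpness
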